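import Crest.Agent.Lib.SnakyW.Tab.Whole
namespace Crest.Agent.SnakyW
theorem c13 : checkAll whole t13 = true := by decide +kernel
end Crest.Agent.SnakyW
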